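import Vale.Agent.Lib.P143L.Final

/-!
The free uniform spanning forest is a factor of IID on every Cayley graph of every finitely generated
group, and, through one Borel map invariant under all relabellings, on every connected locally finite graph.
-/

namespace Vale.Agent.Results.P143.A_main

open MeasureTheory
open Vale.Agent.Lib.P143L

universe u

/-- First part: for a finitely generated group `Γ` with finite generating set `S`, a measurable map
`Φ` of the vertex labels, equivariant for the action of `Γ` by left multiplication, whose image of the
IID uniform labels is the free uniform spanning forest of the Cayley graph. Second part: one Borel map `Ψ` of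
(graph on the natural numbers, vertex labels, edge), invariant under all relabellings of the graph, such
that for every connected locally finite graph `G` the image of the IID labels is the forest of `G`. -/
theorem result :
    (∀ (Γ : Type u) [Group Γ] (S : Finset Γ), Subgroup.closure (S : Set Γ) = ⊤ →
      ∃ Φ : (Γ → unitInterval) → (Sym2 Γ → Bool), Measurable Φ ∧
        (∀ (γ : Γ) (U : Γ → unitInterval),
          Φ (fun v => U (γ⁻¹ * v)) = fun g => Φ U (Sym2.map (fun v => γ⁻¹ * v) g)) ∧
        IsFUSF (cayleyGraph S)
          (Measure.map Φ (Measure.infinitePi fun _ : Γ => (volume : Measure unitInterval)))) ∧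
    (∃ Ψ : (ℕ × ℕ → Bool) × (ℕ → unitInterval) → (Sym2 ℕ → Bool), Measurable Ψ ∧
      (∀ (σ : ℕ ≃ ℕ) (G : SimpleGraph ℕ) (U : ℕ → unitInterval) (g : Sym2 ℕ),
        Ψ (adjB (G.map σ.toEmbedding), fun n => U (σ.symm n)) (Sym2.map σ g) = Ψ (adjB G, U) g) ∧
      ∀ G : SimpleGraph ℕ, G.Connected → (∀ v, (G.neighborSet v).Finite) →
        IsFUSF G (Measure.map (fun U => Ψ (adjB G, U))
          (Measure.infinitePi fun _ : ℕ => (volume : Measure unitInterval)))) :=
  ⟨fun _ _ _ hS => cayley_main hS, graph_main⟩

end Vale.Agent.Results.P143.A_main
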